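import Vale.Agent.Lib.P328.Lower.Stable
import Vale.Agent.Lib.P328.Sparse.Gamma
import Vale.Agent.Lib.P328.Sparse.Chain

/-!
# P328: the capacity lower bound

`betaC c * capR r c t ≤ ∏ r_i ! * FF r c t` for all positive matrices `t`, hence
`betaC c * Ihat r c ≤ |Ω(r, c)|`. No van der Waerden theorem is used: the proof iterates the one step
inequality for the class `Cls` over the columns.
-/

namespace Vale.Agent.Lib.P328.Lower

open Finset MeasureTheory Vale.Agent.Lib.P328 Vale.Agent.Lib.P328.Cap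
open scoped ENNReal Nat

variable {m n : ℕ}

/-- The abstract lower bound for the class `Cls`. -/
theorem lower_abs : ∀ (n : ℕ) (c : Fin (n + 1) → ℕ), (∀ j, 0 < c j) →
    ∀ a : (Fin (n + 1) → ℕ) → ℝ, Cls a (∑ j, c j) → ∀ L : ℝ,
    (∀ b : Fin (n + 1) → ℝ, (∀ j, 0 < b j) → L ≤ evR a (∑ j, c j) b / ∏ j, b j ^ c j) →
    betaC c * L ≤ a c := by
  intro n
  induction n with
  | zero =>
    intro c hc a _ L hL
    have h1 : Sx 1 (∑ j, c j) = {c} := by
      ext κ
      rw [mem_Sx, Finset.mem_singleton]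
      constructor
      · intro h
        funext i
        have hi : i = 0 := Fin.eq_zero i
        subst hi
        simpa using h
      · rintro rfl
        rfl
    have h2 := hL (fun _ => 1) (fun _ => one_pos)
    rw [betaC_one_col c (hc 0), one_mul]
    unfold evR at h2
    rw [h1] at h2
    simpa using h2
  | succ n ih =>
    intro c hc a ha L hL
    obtain ⟨c0, c', rfl⟩ : ∃ (c0 : ℕ) (c' : Fin (n + 1) → ℕ), c = Fin.cons c0 c' :=
      ⟨c 0, Fin.tail c, (Fin.cons_self_tail c).symm⟩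
    have hc0 : 0 < c0 := by simpa using hc 0
    have hc' : ∀ j, 0 < c' j := fun j => by simpa using hc j.succ
    set D' := ∑ j, c' j with hD'
    have hD'0 : 0 < D' := by
      refine Finset.sum_pos (fun j _ => hc' j) ?_
      exact ⟨0, Finset.mem_univ _⟩
    have hD : ∑ j, (Fin.cons c0 c' : Fin (n + 2) → ℕ) j = c0 + D' := by
      rw [Fin.sum_univ_succ]
      simp [hD']
    rw [hD] at ha hL
    have ha' := ha.sec (k := c0) (by omega)
    have e : c0 + D' - c0 = D' := by omega
    rw [e] at ha'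
    set b0 : ℝ := bw (c0 + D') ((c0 : ℝ) / ((c0 + D' : ℕ) : ℝ)) c0 with hb0
    have hb00 : 0 ≤ b0 := by
      refine bw_nonneg (by positivity) ?_ _
      rw [div_le_one (by
        have : 0 < c0 + D' := by omega
        exact_mod_cast this)]
      exact_mod_cast (show c0 ≤ c0 + D' by omega)
    have h1 := ih c' hc' (sec a c0) ha' (b0 * L) (by
      intro b hb
      obtain ⟨s, hs, hineq⟩ := step_ineq ha (m := c0) hc0 (show c0 < c0 + D' by omega) b hb
      rw [e] at hineq
      have h2 := hL (Fin.cons s b) (by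
        intro j
        refine Fin.cases ?_ (fun i => ?_) j
        · simpa using hs
        · simpa using hb i)
      rw [prod_cons_pow] at h2
      have hP : 0 < ∏ j, b j ^ c' j := Finset.prod_pos fun j _ => pow_pos (hb j) _
      have hs0 : 0 < s ^ c0 := pow_pos hs _
      rw [le_div_iff₀ hP]
      have h3 : L * ∏ j, b j ^ c' j ≤ evR a (c0 + D') (Fin.cons s b) / s ^ c0 := by
        rw [le_div_iff₀ hs0]
        rw [le_div_iff₀ (by positivity)] at h2
        calc L * (∏ j, b j ^ c' j) * s ^ c0 = L * (s ^ c0 * ∏ j, b j ^ c' j) := by ring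
          _ ≤ _ := h2
      have h4 := mul_le_mul_of_nonneg_left h3 hb00
      calc b0 * L * ∏ j, b j ^ c' j = b0 * (L * ∏ j, b j ^ c' j) := by ring
        _ ≤ b0 * (evR a (c0 + D') (Fin.cons s b) / s ^ c0) := h4
        _ ≤ _ := by
          have hb1 : b0 = ((c0 + D').choose c0 : ℝ) * ((c0 : ℝ) / ((c0 + D' : ℕ) : ℝ)) ^ c0
              * (1 - (c0 : ℝ) / ((c0 + D' : ℕ) : ℝ)) ^ D' := by
            rw [hb0]
            unfold bw
            rw [e]
          rw [hb1]
          exact hineq)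
    rw [betaC_cons c0 c' hc0 hD'0]
    have h5 : sec a c0 c' = a (Fin.cons c0 c') := rfl
    rw [h5] at h1
    calc bw (c0 + D') ((c0 : ℝ) / ((c0 + D' : ℕ) : ℝ)) c0 * betaC c' * L = betaC c' * (b0 * L) := by
          rw [hb0]
          ring
      _ ≤ _ := h1

/-- The coefficient function of the product of the linear forms. -/
noncomputable def aT (r : Fin m → ℕ) (t : Fin n → Fin m → ℝ) (κ : Fin n → ℕ) : ℝ :=
  ((∏ i, (r i)! : ℕ) : ℝ) * Sparse.FF r κ t

/-- The term of a table in the expansion of the product of the linear forms. -/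
theorem term_table {K : Type*} [CommRing K] (f : ℝ →+* K) (t : Fin n → Fin m → ℝ) (z : Fin n → K)
    (r : Fin m → ℕ) (κ : Fin n → ℕ) {T : Fin n → Fin m → ℕ} (hT : T ∈ tabs r κ) :
    ∏ i, (((Nat.multinomial univ fun j => T j i : ℕ) : K)
        * ∏ j, (f (t j i) * z j) ^ T j i)
      = f (((∏ i, (r i)! : ℕ) : ℝ) * Sparse.wt t T) * ∏ j, z j ^ κ j := by
  obtain ⟨hc, hr⟩ := mem_tabs.1 hT
  have h1 : ((∏ i, (r i)! : ℕ) : ℝ) * Sparse.wt t T
      = ∏ i, (((Nat.multinomial univ fun j => T j i : ℕ) : ℝ) * ∏ j, t j i ^ T j i) := by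
    unfold Sparse.wt
    rw [Finset.prod_comm]
    push_cast
    rw [← Finset.prod_mul_distrib]
    refine Finset.prod_congr rfl fun i _ => ?_
    have h2 := Nat.multinomial_spec univ fun j => T j i
    rw [hr i] at h2
    have h3 : ((∏ j, (T j i)! : ℕ) : ℝ) * ((Nat.multinomial univ fun j => T j i : ℕ) : ℝ)
        = ((r i)! : ℝ) := by
      exact_mod_cast h2
    have h4 : ((∏ j, (T j i)! : ℕ) : ℝ) ≠ 0 := by
      exact_mod_cast (Finset.prod_pos fun j _ => Nat.factorial_pos _).ne'
    rw [← h3]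
    have h5 : ∏ j, t j i ^ T j i / ((T j i)! : ℝ)
        = (∏ j, t j i ^ T j i) / ((∏ j, (T j i)! : ℕ) : ℝ) := by
      rw [Finset.prod_div_distrib]
      push_cast
      rfl
    rw [h5]
    field_simp
  rw [h1, map_prod]
  have h7 : ∀ i, ((Nat.multinomial univ fun j => T j i : ℕ) : K) * ∏ j, (f (t j i) * z j) ^ T j i
      = f (((Nat.multinomial univ fun j => T j i : ℕ) : ℝ) * ∏ j, t j i ^ T j i)
        * ∏ j, z j ^ T j i := by
    intro i
    rw [map_mul, map_natCast, map_prod]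
    simp only [map_pow, mul_pow]
    rw [Finset.prod_mul_distrib]
    ring
  simp only [h7]
  rw [Finset.prod_mul_distrib]
  have h6 : ∏ i, ∏ j, z j ^ T j i = ∏ j, z j ^ κ j := by
    rw [Finset.prod_comm]
    refine Finset.prod_congr rfl fun j _ => ?_
    rw [Finset.prod_pow_eq_pow_sum, hc j]
  rw [h6]

/-- The expansion of the product of the linear forms. -/
theorem prod_forms_expand {K : Type*} [CommRing K] (f : ℝ →+* K) (t : Fin n → Fin m → ℝ)
    (z : Fin n → K) (r : Fin m → ℕ) :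
    ∏ i, (∑ j, f (t j i) * z j) ^ r i
      = ∑ κ ∈ Sx n (∑ i, r i), f (aT r t κ) * ∏ j, z j ^ κ j := by
  have h1 : ∀ i, (∑ j, f (t j i) * z j) ^ r i = ∑ x ∈ piAntidiag univ (r i),
      ((Nat.multinomial univ x : ℕ) : K) * ∏ j, (f (t j i) * z j) ^ x j := fun i =>
    Finset.sum_pow_eq_sum_piAntidiag _ _ _
  simp only [h1]
  rw [Finset.prod_univ_sum]
  -- group by the column sums
  have hmaps : ∀ X ∈ Fintype.piFinset fun i => piAntidiag (univ : Finset (Fin n)) (r i),
      (fun j => ∑ i, X i j) ∈ Sx n (∑ i, r i) := by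
    intro X hX
    refine mem_Sx.2 ?_
    rw [Finset.sum_comm]
    refine Finset.sum_congr rfl fun i _ => ?_
    exact (mem_piAntidiag.1 (Fintype.mem_piFinset.1 hX i)).1
  rw [← Finset.sum_fiberwise_of_maps_to hmaps]
  refine Finset.sum_congr rfl fun κ _ => ?_
  unfold aT Sparse.FF
  rw [Finset.mul_sum, map_sum, Finset.sum_mul]
  refine Finset.sum_nbij' (fun X j i => X i j) (fun T i j => T j i) ?_ ?_ ?_ ?_ ?_
  · intro X hX
    obtain ⟨h2, h3⟩ := Finset.mem_filter.1 hX
    refine mem_tabs.2 ⟨fun j => ?_, fun i => ?_⟩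
    · have := congrFun h3 j
      exact this
    · exact (mem_piAntidiag.1 (Fintype.mem_piFinset.1 h2 i)).1
  · intro T hT
    obtain ⟨hc, hr⟩ := mem_tabs.1 hT
    refine Finset.mem_filter.2 ⟨Fintype.mem_piFinset.2 fun i => ?_, ?_⟩
    · exact mem_piAntidiag.2 ⟨hr i, fun _ _ => Finset.mem_univ _⟩
    · funext j
      exact hc j
  · intro X _
    rfl
  · intro T _
    rfl
  · intro X hX
    obtain ⟨h2, h3⟩ := Finset.mem_filter.1 hX
    have hT : (fun j i => X i j) ∈ tabs r κ := by
      refine mem_tabs.2 ⟨fun j => ?_, fun i => ?_⟩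
      · have := congrFun h3 j
        exact this
      · exact (mem_piAntidiag.1 (Fintype.mem_piFinset.1 h2 i)).1
    exact term_table f t z r κ hT

theorem evR_aT (t : Fin n → Fin m → ℝ) (z : Fin n → ℝ) (r : Fin m → ℕ) :
    evR (aT r t) (∑ i, r i) z = ∏ i, (∑ j, t j i * z j) ^ r i := by
  have h := prod_forms_expand (RingHom.id ℝ) t z r
  simp only [RingHom.id_apply] at h
  rw [h]
  rfl

theorem evC_aT (t : Fin n → Fin m → ℝ) (z : Fin n → ℂ) (r : Fin m → ℕ) :
    evC (aT r t) (∑ i, r i) z = ∏ i, (∑ j, (t j i : ℂ) * z j) ^ r i := by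
  have h := prod_forms_expand Complex.ofRealHom t z r
  simp only [Complex.ofRealHom_eq_coe] at h
  rw [h]
  rfl

/-- The product of the linear forms lies in the class. -/
theorem cls_aT {t : Fin n → Fin m → ℝ} (ht : ∀ j i, 0 < t j i) (r : Fin m → ℕ) :
    Cls (aT r t) (∑ i, r i) where
  pos := by
    intro κ hκ
    unfold aT
    have h1 : (0 : ℝ) < ((∏ i, (r i)! : ℕ) : ℝ) := by
      exact_mod_cast Finset.prod_pos fun i _ => Nat.factorial_pos _
    exact mul_pos h1 (Sparse.FF_pos ht r κ hκ.symm)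
  stab := by
    intro z hz hz2
    rw [evC_aT]
    refine Finset.prod_ne_zero_iff.2 fun i _ => pow_ne_zero _ ?_
    intro h0
    have h1 : (∑ j, (t j i : ℂ) * z j).re = ∑ j, t j i * (z j).re := by
      rw [Complex.re_sum]
      refine Finset.sum_congr rfl fun j _ => ?_
      simp
    obtain ⟨j0, hj0⟩ := hz2
    have h2 : 0 < ∑ j, t j i * (z j).re := by
      refine Finset.sum_pos' (fun j _ => mul_nonneg (ht j i).le (hz j)) ⟨j0, Finset.mem_univ _, ?_⟩
      exact mul_pos (ht j0 i) hj0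
    rw [h0] at h1
    simp at h1
    linarith

/-- The pointwise capacity lower bound. -/
theorem betaC_capR_le {n : ℕ} {t : Fin (n + 1) → Fin m → ℝ} (ht : ∀ j i, 0 < t j i)
    (r : Fin m → ℕ) (c : Fin (n + 1) → ℕ) (hc : ∀ j, 0 < c j) (hsum : ∑ i, r i = ∑ j, c j) :
    betaC c * Sparse.capR r c t ≤ ((∏ i, (r i)! : ℕ) : ℝ) * Sparse.FF r c t := by
  have h := lower_abs n c hc (aT r t) (hsum ▸ cls_aT ht r) (Sparse.capR r c t) (by
    intro b hb
    rw [← hsum, evR_aT]
    exact Sparse.capR_le_valB ht r c b hb)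
  exact h

/-- The mass of the planted law. -/
theorem lintegral_wmat_FF' (r : Fin m → ℕ) (c : Fin n → ℕ) :
    ∫⁻ t, wmat t * ENNReal.ofReal (Sparse.FF r c t) = ((tabs r c).card : ℝ≥0∞) := by
  have h1 : ∀ t : Fin n → Fin m → ℝ, wmat t * ENNReal.ofReal (Sparse.FF r c t)
      = ∑ T ∈ tabs r c, wmat t * ENNReal.ofReal (Sparse.wt t T) := by
    intro t
    by_cases hw : wmat t = 0
    · simp [hw]
    · have hp := wmat_ne_zero_pos hw
      unfold Sparse.FF
      rw [ENNReal.ofReal_sum_of_nonneg fun T _ => (Sparse.wt_pos hp T).le, Finset.mul_sum]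
  simp only [h1]
  have hm : ∀ T ∈ tabs r c, Measurable fun t : Fin n → Fin m → ℝ =>
      wmat t * ENNReal.ofReal (Sparse.wt t T) := fun T _ =>
    measurable_wmat.mul (Sparse.measurable_wt T).ennreal_ofReal
  rw [lintegral_finsetSum _ hm]
  simp only [Sparse.gamma_mass, Finset.sum_const, nsmul_eq_mul, mul_one]

/-- **The capacity lower bound**: `beta(c) * I(r, c) ≤ |Ω(r, c)|`. -/
theorem betaC_Ihat_le {n : ℕ} (r : Fin m → ℕ) (c : Fin (n + 1) → ℕ) (hc : ∀ j, 0 < c j)
    (hsum : ∑ i, r i = ∑ j, c j) :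
    ENNReal.ofReal (betaC c) * Ihat r c ≤ ((tabs r c).card : ℝ≥0∞) := by
  set F : ℝ≥0∞ := ((∏ i, (r i)! : ℕ) : ℝ≥0∞) with hF
  have hF0 : F ≠ 0 := by
    rw [hF]
    exact_mod_cast (Finset.prod_pos fun i _ => Nat.factorial_pos _).ne'
  have hFt : F ≠ ⊤ := by
    rw [hF]
    exact ENNReal.natCast_ne_top _
  have hpt : ∀ t : Fin (n + 1) → Fin m → ℝ, ENNReal.ofReal (betaC c) * (wmat t * capa r c t)
      ≤ F * (wmat t * ENNReal.ofReal (Sparse.FF r c t)) := by
    intro t
    by_cases hw : wmat t = 0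
    · simp [hw]
    · have hp := wmat_ne_zero_pos hw
      have h1 := betaC_capR_le hp r c hc hsum
      have h2 : ENNReal.ofReal (betaC c) * capa r c t
          ≤ F * ENNReal.ofReal (Sparse.FF r c t) := by
        rw [Sparse.capa_eq_ofReal, ← ENNReal.ofReal_mul (betaC_nonneg c), hF,
          ← ENNReal.ofReal_natCast, ← ENNReal.ofReal_mul (Nat.cast_nonneg _)]
        exact ENNReal.ofReal_le_ofReal h1
      calc ENNReal.ofReal (betaC c) * (wmat t * capa r c t)
          = wmat t * (ENNReal.ofReal (betaC c) * capa r c t) := by ring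
        _ ≤ wmat t * (F * ENNReal.ofReal (Sparse.FF r c t)) := mul_le_mul_right h2 _
        _ = _ := by ring
  have h3 : ENNReal.ofReal (betaC c) * ∫⁻ t, wmat t * capa r c t
      ≤ F * ((tabs r c).card : ℝ≥0∞) := by
    rw [← lintegral_const_mul' _ _ ENNReal.ofReal_ne_top, ← lintegral_wmat_FF' r c,
      ← lintegral_const_mul' _ _ hFt]
    exact lintegral_mono hpt
  rw [Ihat_eq, ← hF, ← mul_div_assoc]
  refine ENNReal.div_le_of_le_mul ?_
  rw [mul_comm _ F]
  exact h3

end Vale.Agent.Lib.P328.Lower
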