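import Vale.Agent.Lib.P328.Lower.ULC

/-!
# P328, capacity lower bound: a class of stable homogeneous polynomials

A homogeneous polynomial is given by its coefficient function `a` on the exponent vectors of total
degree `D`. The class `Cls a D`: all coefficients are positive and the polynomial has no zero with
all real parts nonnegative and one of them positive. The class is closed under taking the
coefficient of a power of the first variable, and on positive reals the polynomial in the first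
variable has negative real roots only.
-/

namespace Vale.Agent.Lib.P328.Lower

open Finset Polynomial
open scoped Nat ComplexConjugate

variable {n : ℕ}

/-- The exponent vectors of total degree `D`. -/
def Sx (n D : ℕ) : Finset (Fin n → ℕ) := Finset.Nat.antidiagonalTuple n D

theorem mem_Sx {D : ℕ} {x : Fin n → ℕ} : x ∈ Sx n D ↔ ∑ i, x i = D :=
  Finset.Nat.mem_antidiagonalTuple

/-- The value of a homogeneous polynomial at a real point. -/
noncomputable def evR (a : (Fin n → ℕ) → ℝ) (D : ℕ) (z : Fin n → ℝ) : ℝ :=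
  ∑ κ ∈ Sx n D, a κ * ∏ j, z j ^ κ j

/-- The value of a homogeneous polynomial at a complex point. -/
noncomputable def evC (a : (Fin n → ℕ) → ℝ) (D : ℕ) (z : Fin n → ℂ) : ℂ :=
  ∑ κ ∈ Sx n D, (a κ : ℂ) * ∏ j, z j ^ κ j

/-- The coefficient of a power of the first variable. -/
def sec (a : (Fin (n + 1) → ℕ) → ℝ) (k : ℕ) : (Fin n → ℕ) → ℝ := fun κ => a (Fin.cons k κ)

theorem sum_Sx_succ {β : Type*} [AddCommMonoid β] (D : ℕ) (f : (Fin (n + 1) → ℕ) → β) :
    ∑ κ ∈ Sx (n + 1) D, f κ = ∑ j ∈ range (D + 1), ∑ κ ∈ Sx n (D - j), f (Fin.cons j κ) := by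
  rw [Finset.sum_sigma']
  refine Finset.sum_bij' (fun κ _ => ⟨κ 0, Fin.tail κ⟩) (fun p _ => Fin.cons p.1 p.2) ?_ ?_ ?_ ?_ ?_
  · intro κ hκ
    have h := mem_Sx.1 hκ
    rw [Fin.sum_univ_succ] at h
    simp only [Finset.mem_sigma, Finset.mem_range, mem_Sx]
    refine ⟨by omega, ?_⟩
    have : ∑ i : Fin n, Fin.tail κ i = ∑ i : Fin n, κ i.succ := rfl
    omega
  · intro p hp
    obtain ⟨h1, h2⟩ := Finset.mem_sigma.1 hp
    have h3 := mem_Sx.1 h2
    have h4 := Finset.mem_range.1 h1
    refine mem_Sx.2 ?_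
    rw [Fin.sum_univ_succ]
    simp only [Fin.cons_zero, Fin.cons_succ]
    omega
  · intro κ _
    exact Fin.cons_self_tail κ
  · intro p _
    simp
  · intro κ _
    rw [Fin.cons_self_tail]

theorem prod_cons_pow {K : Type*} [CommMonoid K] (s : K) (z : Fin n → K) (k : ℕ) (κ : Fin n → ℕ) :
    ∏ j, (Fin.cons s z : Fin (n + 1) → K) j ^ (Fin.cons k κ : Fin (n + 1) → ℕ) j
      = s ^ k * ∏ j, z j ^ κ j := by
  rw [Fin.prod_univ_succ]
  simp only [Fin.cons_zero, Fin.cons_succ]

theorem evC_cons (a : (Fin (n + 1) → ℕ) → ℝ) (D : ℕ) (s : ℂ) (z : Fin n → ℂ) :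
    evC a D (Fin.cons s z) = ∑ j ∈ range (D + 1), evC (sec a j) (D - j) z * s ^ j := by
  unfold evC
  rw [sum_Sx_succ]
  refine Finset.sum_congr rfl fun j _ => ?_
  rw [Finset.sum_mul]
  refine Finset.sum_congr rfl fun κ _ => ?_
  rw [prod_cons_pow, sec]
  ring

theorem evR_cons (a : (Fin (n + 1) → ℕ) → ℝ) (D : ℕ) (s : ℝ) (z : Fin n → ℝ) :
    evR a D (Fin.cons s z) = ∑ j ∈ range (D + 1), evR (sec a j) (D - j) z * s ^ j := by
  unfold evR
  rw [sum_Sx_succ]
  refine Finset.sum_congr rfl fun j _ => ?_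
  rw [Finset.sum_mul]
  refine Finset.sum_congr rfl fun κ _ => ?_
  rw [prod_cons_pow, sec]
  ring

theorem evC_ofReal (a : (Fin n → ℕ) → ℝ) (D : ℕ) (z : Fin n → ℝ) :
    evC a D (fun j => (z j : ℂ)) = (evR a D z : ℂ) := by
  unfold evC evR
  push_cast
  rfl

theorem evC_deg_zero (b : (Fin n → ℕ) → ℝ) (z : Fin n → ℂ) : evC b 0 z = (b 0 : ℂ) := by
  unfold evC Sx
  rw [Finset.Nat.antidiagonalTuple_zero_right]
  simp

theorem evC_smul (a : (Fin n → ℕ) → ℝ) (D : ℕ) (l : ℂ) (z : Fin n → ℂ) :
    evC a D (fun j => l * z j) = l ^ D * evC a D z := by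
  unfold evC
  rw [Finset.mul_sum]
  refine Finset.sum_congr rfl fun κ hκ => ?_
  have h : ∏ j, (l * z j) ^ κ j = l ^ D * ∏ j, z j ^ κ j := by
    simp only [mul_pow]
    rw [Finset.prod_mul_distrib, Finset.prod_pow_eq_pow_sum, mem_Sx.1 hκ]
  rw [h]
  ring

/-- The polynomial in the first variable. -/
noncomputable def polyC (a : (Fin (n + 1) → ℕ) → ℝ) (D : ℕ) (z : Fin n → ℂ) : ℂ[X] :=
  ∑ j ∈ range (D + 1), C (evC (sec a j) (D - j) z) * X ^ j

/-- The polynomial in the first variable. -/
noncomputable def polyR (a : (Fin (n + 1) → ℕ) → ℝ) (D : ℕ) (z : Fin n → ℝ) : ℝ[X] :=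
  ∑ j ∈ range (D + 1), C (evR (sec a j) (D - j) z) * X ^ j

theorem eval_polyC (a : (Fin (n + 1) → ℕ) → ℝ) (D : ℕ) (z : Fin n → ℂ) (s : ℂ) :
    (polyC a D z).eval s = evC a D (Fin.cons s z) := by
  rw [evC_cons]
  unfold polyC
  simp [eval_finsetSum]

theorem eval_polyR (a : (Fin (n + 1) → ℕ) → ℝ) (D : ℕ) (z : Fin n → ℝ) (s : ℝ) :
    (polyR a D z).eval s = evR a D (Fin.cons s z) := by
  rw [evR_cons]
  unfold polyR
  simp [eval_finsetSum]

theorem coeff_polyC (a : (Fin (n + 1) → ℕ) → ℝ) (D : ℕ) (z : Fin n → ℂ) (j : ℕ) :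
    (polyC a D z).coeff j = if j ≤ D then evC (sec a j) (D - j) z else 0 := by
  unfold polyC
  rw [finsetSum_coeff]
  simp only [coeff_C_mul_X_pow]
  rw [Finset.sum_ite_eq]
  simp

theorem coeff_polyR (a : (Fin (n + 1) → ℕ) → ℝ) (D : ℕ) (z : Fin n → ℝ) (j : ℕ) :
    (polyR a D z).coeff j = if j ≤ D then evR (sec a j) (D - j) z else 0 := by
  unfold polyR
  rw [finsetSum_coeff]
  simp only [coeff_C_mul_X_pow]
  rw [Finset.sum_ite_eq]
  simp

theorem map_polyR (a : (Fin (n + 1) → ℕ) → ℝ) (D : ℕ) (z : Fin n → ℝ) :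
    (polyR a D z).map Complex.ofRealHom = polyC a D (fun j => (z j : ℂ)) := by
  ext j
  rw [coeff_map, coeff_polyR, coeff_polyC]
  split_ifs
  · rw [evC_ofReal]
    rfl
  · simp

/-- A polynomial without zeros in the closed right half plane has a derivative without such zeros. -/
theorem derivative_no_roots {R : ℂ[X]} (hR : ∀ s : ℂ, 0 ≤ s.re → R.eval s ≠ 0)
    (hdeg : 0 < R.natDegree) : ∀ s : ℂ, 0 ≤ s.re → (derivative R).eval s ≠ 0 := by
  intro s hs h0
  have hd : 0 < R.degree := natDegree_pos_iff_degree_pos.1 hdeg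
  have hne : derivative R ≠ 0 := by
    intro h
    have := derivative_eq_zero.1 h
    omega
  have hmem : s ∈ (derivative R).rootSet ℂ := by
    rw [mem_rootSet]
    exact ⟨hne, by rw [coe_aeval_eq_eval]; exact h0⟩
  have hhull := rootSet_derivative_subset_convexHull_rootSet hd hmem
  have hconv : Convex ℝ {z : ℂ | z.re < 0} := convex_halfSpace_re_lt 0
  have hsub : R.rootSet ℂ ⊆ {z : ℂ | z.re < 0} := by
    intro z hz
    rw [mem_rootSet] at hz
    by_contra hz2
    have hz3 : 0 ≤ z.re := not_lt.1 hz2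
    exact hR z hz3 (by rw [← coe_aeval_eq_eval]; exact hz.2)
  have h1 := convexHull_min hsub hconv hhull
  have h2 : s.re < 0 := h1
  linarith

/-- A polynomial without zeros in the closed right half plane has no vanishing coefficient. -/
theorem coeff_ne_zero_of_no_roots : ∀ (d : ℕ) (R : ℂ[X]), R.natDegree = d →
    (∀ s : ℂ, 0 ≤ s.re → R.eval s ≠ 0) → ∀ j, j ≤ d → R.coeff j ≠ 0 := by
  intro d
  induction d with
  | zero =>
    intro R _ hR j hj
    obtain rfl : j = 0 := by omega
    rw [coeff_zero_eq_eval_zero]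
    exact hR 0 (by simp)
  | succ d ih =>
    intro R hd hR j hj
    cases j with
    | zero =>
      rw [coeff_zero_eq_eval_zero]
      exact hR 0 (by simp)
    | succ k =>
      have h0 : 0 < R.natDegree := by omega
      have h1 := derivative_no_roots hR h0
      have h2 : (derivative R).natDegree = d := by
        rw [natDegree_derivative]
        omega
      have h3 := ih (derivative R) h2 h1 k (by omega)
      rw [coeff_derivative] at h3
      intro h4
      rw [h4, zero_mul] at h3
      exact h3 rfl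

/-- The class of stable polynomials with positive coefficients. -/
structure Cls (a : (Fin n → ℕ) → ℝ) (D : ℕ) : Prop where
  pos : ∀ κ, ∑ j, κ j = D → 0 < a κ
  stab : ∀ z : Fin n → ℂ, (∀ j, 0 ≤ (z j).re) → (∃ j, 0 < (z j).re) → evC a D z ≠ 0

theorem natDegree_polyC {a : (Fin (n + 1) → ℕ) → ℝ} {D : ℕ} (h : Cls a D) (z : Fin n → ℂ) :
    (polyC a D z).natDegree = D := by
  refine natDegree_eq_of_le_of_coeff_ne_zero ?_ ?_
  · refine natDegree_le_iff_coeff_eq_zero.2 fun j hj => ?_
    rw [coeff_polyC, if_neg (by omega)]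
  · rw [coeff_polyC, if_pos le_rfl, Nat.sub_self, evC_deg_zero]
    have h1 := h.pos (Fin.cons D 0) (by
      rw [Fin.sum_univ_succ]
      simp)
    unfold sec
    exact_mod_cast h1.ne'

/-- The class is closed under taking a coefficient in the first variable. -/
theorem Cls.sec {a : (Fin (n + 1) → ℕ) → ℝ} {D : ℕ} (h : Cls a D) {k : ℕ} (hk : k ≤ D) :
    Cls (Lower.sec a k) (D - k) where
  pos := by
    intro κ hκ
    refine h.pos _ ?_
    rw [Fin.sum_univ_succ]
    simp only [Fin.cons_zero, Fin.cons_succ]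
    omega
  stab := by
    intro z hz hz2
    have h1 : ∀ s : ℂ, 0 ≤ s.re → (polyC a D z).eval s ≠ 0 := by
      intro s hs
      rw [eval_polyC]
      refine h.stab _ ?_ ?_
      · intro j
        refine Fin.cases ?_ (fun i => ?_) j
        · simpa using hs
        · simpa using hz i
      · obtain ⟨j, hj⟩ := hz2
        exact ⟨j.succ, by simpa using hj⟩
    have h2 := coeff_ne_zero_of_no_roots D (polyC a D z) (natDegree_polyC h z) h1 k hk
    rw [coeff_polyC, if_pos hk] at h2
    exact h2

/-- On positive reals the polynomial in the first variable has negative real roots only. -/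
theorem root_neg_real {a : (Fin (n + 2) → ℕ) → ℝ} {D : ℕ} (h : Cls a D) (z : Fin (n + 1) → ℝ)
    (hz : ∀ j, 0 < z j) {s : ℂ} (hs : (polyC a D fun j => (z j : ℂ)).eval s = 0) :
    s.im = 0 ∧ s.re < 0 := by
  rw [eval_polyC] at hs
  by_contra hcon
  have hcases : s = 0 ∨ (0 < ‖s‖ ∧ 0 < ‖s‖ + s.re) := by
    by_cases hs0 : s = 0
    · exact Or.inl hs0
    · refine Or.inr ⟨norm_pos_iff.2 hs0, ?_⟩
      by_cases him : s.im = 0
      · have hre : 0 ≤ s.re := by
          by_contra hre
          exact hcon ⟨him, not_le.1 hre⟩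
        have := norm_pos_iff.2 hs0
        linarith
      · have := Complex.abs_re_lt_norm.2 him
        have h3 := neg_abs_le s.re
        linarith
  rcases hcases with rfl | ⟨h1, h2⟩
  · refine h.stab _ ?_ ?_ hs
    · intro j
      refine Fin.cases ?_ (fun i => ?_) j
      · simp
      · simpa using (hz i).le
    · exact ⟨Fin.succ 0, by simpa using hz 0⟩
  · set l : ℂ := (‖s‖ : ℂ) + conj s with hl
    have hlre : l.re = ‖s‖ + s.re := by
      simp [hl]
    have hlne : l ≠ 0 := by
      intro h0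
      rw [h0] at hlre
      simp at hlre
      linarith
    have hls : (l * s).re = ‖s‖ * (‖s‖ + s.re) := by
      have h3 : l * s = (‖s‖ : ℂ) * s + conj s * s := by
        rw [hl]
        ring
      rw [h3, Complex.conj_mul']
      simp only [Complex.add_re, Complex.mul_re, Complex.ofReal_re, Complex.ofReal_im, zero_mul,
        sub_zero, ← Complex.ofReal_pow]
      ring
    have h4 := evC_smul a D l (Fin.cons s fun j => (z j : ℂ))
    rw [hs, mul_zero] at h4
    refine h.stab _ ?_ ?_ h4
    · intro j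
      refine Fin.cases ?_ (fun i => ?_) j
      · simp only [Fin.cons_zero]
        rw [hls]
        positivity
      · simp only [Fin.cons_succ]
        have h5 : (l * (z i : ℂ)).re = z i * (‖s‖ + s.re) := by
          rw [Complex.mul_re, hlre]
          simp
          ring
        rw [h5]
        have := hz i
        positivity
    · refine ⟨0, ?_⟩
      simp only [Fin.cons_zero]
      rw [hls]
      positivity

/-- The factorisation of the polynomial in the first variable over the positive reals. -/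
theorem polyR_factor {a : (Fin (n + 2) → ℕ) → ℝ} {D : ℕ} (h : Cls a D) (z : Fin (n + 1) → ℝ)
    (hz : ∀ j, 0 < z j) :
    ∃ (l : ℝ) (W : Multiset ℝ), 0 < l ∧ (∀ w ∈ W, 0 < w) ∧ Multiset.card W = D ∧
      polyR a D z = C l * prodLin W := by
  set zc : Fin (n + 1) → ℂ := fun j => (z j : ℂ) with hzc
  set Q := polyC a D zc with hQ
  have hdeg : Q.natDegree = D := natDegree_polyC h zc
  have hspl : Q.Splits := IsAlgClosed.splits Q
  set W : Multiset ℝ := Q.roots.map fun ζ => -ζ.re with hW
  have hroot : ∀ ζ ∈ Q.roots, ζ.im = 0 ∧ ζ.re < 0 := by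
    intro ζ hζ
    exact root_neg_real h z hz (isRoot_of_mem_roots hζ)
  set l : ℝ := a (Fin.cons D 0) with hl
  have hl0 : 0 < l := h.pos _ (by
    rw [Fin.sum_univ_succ]
    simp)
  refine ⟨l, W, hl0, ?_, ?_, ?_⟩
  · intro w hw
    obtain ⟨ζ, hζ, rfl⟩ := Multiset.mem_map.1 hw
    have := (hroot ζ hζ).2
    linarith
  · rw [hW, Multiset.card_map, ← hspl.natDegree_eq_card_roots, hdeg]
  · apply map_injective Complex.ofRealHom Complex.ofReal_injective
    rw [map_polyR, ← hzc, ← hQ]
    rw [hspl.eq_prod_roots]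
    have hlead : Q.leadingCoeff = (l : ℂ) := by
      rw [leadingCoeff, hdeg, hQ, coeff_polyC, if_pos le_rfl, Nat.sub_self, evC_deg_zero]
      rfl
    rw [hlead, Polynomial.map_mul, map_C]
    congr 1
    unfold prodLin
    rw [Polynomial.map_multiset_prod, hW, Multiset.map_map, Multiset.map_map]
    congr 1
    refine Multiset.map_congr rfl fun ζ hζ => ?_
    simp only [Function.comp, Polynomial.map_add, map_X, map_C]
    have h1 := (hroot ζ hζ).1
    have h2 : Complex.ofRealHom (-ζ.re) = -ζ := by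
      apply Complex.ext
      · simp
      · simp [h1]
    rw [h2, map_neg, sub_eq_add_neg]

/-- The one step inequality. -/
theorem step_ineq {a : (Fin (n + 2) → ℕ) → ℝ} {D m : ℕ} (h : Cls a D) (hm0 : 0 < m) (hmD : m < D)
    (z : Fin (n + 1) → ℝ) (hz : ∀ j, 0 < z j) :
    ∃ s : ℝ, 0 < s ∧ (D.choose m : ℝ) * ((m : ℝ) / D) ^ m * (1 - (m : ℝ) / D) ^ (D - m)
      * (evR a D (Fin.cons s z) / s ^ m) ≤ evR (sec a m) (D - m) z := by
  obtain ⟨l, W, hl, hW, hcard, hfac⟩ := polyR_factor h z hz
  have hU := prodLin_ULC W hW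
  rw [hcard] at hU
  obtain ⟨s, hs, hineq⟩ := hU.tangent hm0 hmD
  refine ⟨s, hs, ?_⟩
  have h1 : evR a D (Fin.cons s z) = l * (prodLin W).eval s := by
    rw [← eval_polyR, hfac]
    simp
  have h2 : evR (sec a m) (D - m) z = l * (prodLin W).coeff m := by
    have := coeff_polyR a D z m
    rw [if_pos hmD.le, hfac, coeff_C_mul] at this
    exact this.symm
  rw [h1, h2]
  have h3 := mul_le_mul_of_nonneg_left hineq hl.le
  refine le_trans (le_of_eq ?_) h3
  ring

end Vale.Agent.Lib.P328.Lower
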