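import Mathlib

/-!
# P328, capacity lower bound: Newton's inequalities for a product of linear factors

`alf p D j = p.coeff j * j! * (D - j)!` is log-concave for `p = ∏ (X + w)`, `w > 0`, `D = deg p`.
This gives the tangent bound of a real rooted polynomial at a coefficient.
-/

namespace Vale.Agent.Lib.P328.Lower

open Finset Polynomial
open scoped Nat

/-- The normalised coefficient. -/
noncomputable def alf (p : ℝ[X]) (D j : ℕ) : ℝ := p.coeff j * (j ! : ℝ) * ((D - j)! : ℝ)

/-- Positive coefficients up to `D`, no coefficients above `D`, and Newton's inequalities. -/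
structure ULC (p : ℝ[X]) (D : ℕ) : Prop where
  pos : ∀ j, j ≤ D → 0 < p.coeff j
  zero : ∀ j, D < j → p.coeff j = 0
  lc : ∀ j, j + 2 ≤ D → alf p D j * alf p D (j + 2) ≤ alf p D (j + 1) ^ 2

theorem fact_pos' (n : ℕ) : (0 : ℝ) < (n ! : ℝ) := by exact_mod_cast Nat.factorial_pos n

theorem alf_pos {p : ℝ[X]} {D : ℕ} (h : ULC p D) {j : ℕ} (hj : j ≤ D) : 0 < alf p D j := by
  unfold alf
  have := h.pos j hj
  have h1 := fact_pos' j
  have h2 := fact_pos' (D - j)
  positivity

theorem alf_zero {p : ℝ[X]} {D : ℕ} (h : ULC p D) {j : ℕ} (hj : D < j) : alf p D j = 0 := by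
  unfold alf
  rw [h.zero j hj]
  ring

theorem coeff_lin_zero (p : ℝ[X]) (w : ℝ) : ((X + C w) * p).coeff 0 = w * p.coeff 0 := by
  simp [add_mul, mul_coeff_zero]

theorem coeff_lin_succ (p : ℝ[X]) (w : ℝ) (j : ℕ) :
    ((X + C w) * p).coeff (j + 1) = p.coeff j + w * p.coeff (j + 1) := by
  simp [add_mul, coeff_X_mul]

/-- The recursion of the normalised coefficients, first coefficient. -/
theorem alf_lin_zero (p : ℝ[X]) (w : ℝ) (D : ℕ) :
    alf ((X + C w) * p) (D + 1) 0 = w * ((D : ℝ) + 1) * alf p D 0 := by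
  unfold alf
  rw [coeff_lin_zero]
  simp only [Nat.factorial_zero, Nat.cast_one, mul_one, Nat.sub_zero]
  rw [Nat.factorial_succ]
  push_cast
  ring

/-- The recursion of the normalised coefficients. -/
theorem alf_lin_succ {p : ℝ[X]} {D : ℕ} (h : ULC p D) (w : ℝ) (j : ℕ) (hj : j ≤ D) :
    alf ((X + C w) * p) (D + 1) (j + 1)
      = ((j : ℝ) + 1) * alf p D j + w * ((D : ℝ) - j) * alf p D (j + 1) := by
  rcases Nat.lt_or_ge j D with h1 | h1
  · obtain ⟨d, rfl⟩ : ∃ d, D = j + 1 + d := ⟨D - (j + 1), by omega⟩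
    unfold alf
    rw [coeff_lin_succ]
    have h2 : j + 1 + d + 1 - (j + 1) = d + 1 := by omega
    have h3 : j + 1 + d - j = d + 1 := by omega
    have h4 : j + 1 + d - (j + 1) = d := by omega
    rw [h2, h3, h4, Nat.factorial_succ j, Nat.factorial_succ d]
    push_cast
    ring
  · obtain rfl : j = D := le_antisymm hj h1
    unfold alf
    rw [coeff_lin_succ, h.zero (j + 1) (by omega), Nat.factorial_succ j]
    have h2 : j + 1 - (j + 1) = 0 := by omega
    have h3 : j - j = 0 := by omega
    rw [h2, h3]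
    simp only [Nat.factorial_zero]
    push_cast
    ring

/-- Multiplying by a linear factor preserves Newton's inequalities. -/
theorem ULC.lin {p : ℝ[X]} {D : ℕ} (h : ULC p D) {w : ℝ} (hw : 0 < w) :
    ULC ((X + C w) * p) (D + 1) where
  pos := by
    intro j hj
    cases j with
    | zero =>
      rw [coeff_lin_zero]
      exact mul_pos hw (h.pos 0 (Nat.zero_le _))
    | succ j =>
      rw [coeff_lin_succ]
      have h1 := h.pos j (by omega)
      by_cases h2 : j + 1 ≤ D
      · have := h.pos (j + 1) h2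
        positivity
      · rw [h.zero (j + 1) (by omega)]
        simpa using h1
  zero := by
    intro j hj
    cases j with
    | zero => omega
    | succ j =>
      rw [coeff_lin_succ, h.zero j (by omega), h.zero (j + 1) (by omega)]
      simp
  lc := by
    intro j hj
    cases j with
    | zero =>
      have hD : 1 ≤ D := by omega
      have hD' : (1 : ℝ) ≤ D := by exact_mod_cast hD
      have e0 := alf_lin_zero p w D
      have e1 : alf ((X + C w) * p) (D + 1) 1 = alf p D 0 + w * (D : ℝ) * alf p D 1 := by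
        have : alf ((X + C w) * p) (D + 1) 1
            = (((0 : ℕ) : ℝ) + 1) * alf p D 0 + w * ((D : ℝ) - ((0 : ℕ) : ℝ)) * alf p D 1 :=
          alf_lin_succ h w 0 (Nat.zero_le _)
        rw [this]
        push_cast
        ring
      have e2 : alf ((X + C w) * p) (D + 1) 2 = 2 * alf p D 1 + w * ((D : ℝ) - 1) * alf p D 2 := by
        have : alf ((X + C w) * p) (D + 1) 2
            = (((1 : ℕ) : ℝ) + 1) * alf p D 1 + w * ((D : ℝ) - ((1 : ℕ) : ℝ)) * alf p D 2 :=
          alf_lin_succ h w 1 hD
        rw [this]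
        push_cast
        ring
      show alf ((X + C w) * p) (D + 1) 0 * alf ((X + C w) * p) (D + 1) 2
        ≤ alf ((X + C w) * p) (D + 1) 1 ^ 2
      rw [e0, e1, e2]
      set x := alf p D 0
      set y := alf p D 1
      set u := alf p D 2
      have hy : 0 < y := alf_pos h hD
      have hx : 0 < x := alf_pos h (Nat.zero_le _)
      have hxu : x * u ≤ y ^ 2 := by
        by_cases h2 : 2 ≤ D
        · exact h.lc 0 h2
        · have : u = 0 := alf_zero h (by omega)
          rw [this, mul_zero]
          positivity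
      have hid : (x + w * (D : ℝ) * y) ^ 2 - w * ((D : ℝ) + 1) * x * (2 * y + w * ((D : ℝ) - 1) * u)
          = (x - w * y) ^ 2 + w ^ 2 * ((D : ℝ) ^ 2 - 1) * (y ^ 2 - x * u) := by
        ring
      have h3 : 0 ≤ w ^ 2 * ((D : ℝ) ^ 2 - 1) * (y ^ 2 - x * u) := by
        refine mul_nonneg (mul_nonneg (by positivity) ?_) (by linarith)
        nlinarith
      have h4 := sq_nonneg (x - w * y)
      linarith
    | succ i =>
      have hi : i + 2 ≤ D := by omega
      have hi' : ((i : ℝ) + 2) ≤ D := by exact_mod_cast hi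
      have e1 : alf ((X + C w) * p) (D + 1) (i + 1)
          = ((i : ℝ) + 1) * alf p D i + w * ((D : ℝ) - i) * alf p D (i + 1) :=
        alf_lin_succ h w i (by omega)
      have e2 : alf ((X + C w) * p) (D + 1) (i + 1 + 1)
          = ((i : ℝ) + 2) * alf p D (i + 1) + w * ((D : ℝ) - i - 1) * alf p D (i + 2) := by
        have : alf ((X + C w) * p) (D + 1) (i + 1 + 1)
            = (((i + 1 : ℕ) : ℝ) + 1) * alf p D (i + 1)
              + w * ((D : ℝ) - ((i + 1 : ℕ) : ℝ)) * alf p D (i + 2) :=
          alf_lin_succ h w (i + 1) (by omega)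
        rw [this]
        push_cast
        ring
      have e3 : alf ((X + C w) * p) (D + 1) (i + 1 + 2)
          = ((i : ℝ) + 3) * alf p D (i + 2) + w * ((D : ℝ) - i - 2) * alf p D (i + 3) := by
        have : alf ((X + C w) * p) (D + 1) (i + 1 + 2)
            = (((i + 2 : ℕ) : ℝ) + 1) * alf p D (i + 2)
              + w * ((D : ℝ) - ((i + 2 : ℕ) : ℝ)) * alf p D (i + 3) :=
          alf_lin_succ h w (i + 2) (by omega)
        rw [this]
        push_cast
        ring
      rw [e1, e2, e3]
      set x := alf p D i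
      set y := alf p D (i + 1)
      set u := alf p D (i + 2)
      set v := alf p D (i + 3)
      have hx : 0 < x := alf_pos h (by omega)
      have hy : 0 < y := alf_pos h (by omega)
      have hu : 0 < u := alf_pos h (by omega)
      have hxu : x * u ≤ y ^ 2 := h.lc i (by omega)
      have hyv : y * v ≤ u ^ 2 ∧ x * v ≤ y * u := by
        by_cases h2 : i + 3 ≤ D
        · have h3 : y * v ≤ u ^ 2 := h.lc (i + 1) (by omega)
          refine ⟨h3, ?_⟩
          have h4 : (x * v) * (y * u) ≤ (y * u) * (y * u) := by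
            have h5 : (x * u) * (y * v) ≤ y ^ 2 * u ^ 2 :=
              mul_le_mul hxu h3 (mul_nonneg hy.le (alf_pos h h2).le) (by positivity)
            nlinarith
          exact le_of_mul_le_mul_right h4 (mul_pos hy hu)
        · have : v = 0 := alf_zero h (by omega)
          rw [this]
          constructor
          · rw [mul_zero]
            positivity
          · rw [mul_zero]
            positivity
      obtain ⟨hyv, hxv⟩ := hyv
      set J : ℝ := (i : ℝ) + 2 with hJ
      set A : ℝ := (D : ℝ) - i - 1 with hA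
      have hJ1 : 2 ≤ J := by
        have : (0 : ℝ) ≤ i := Nat.cast_nonneg _
        linarith
      have hA1 : 1 ≤ A := by linarith
      have hid : (J * y + w * A * u) ^ 2
            - ((J - 1) * x + w * (A + 1) * y) * ((J + 1) * u + w * (A - 1) * v)
          = (J ^ 2 - 1) * (y ^ 2 - x * u) + w ^ 2 * (A ^ 2 - 1) * (u ^ 2 - y * v)
            + w * (J - 1) * (A - 1) * (y * u - x * v) + (y - w * u) ^ 2 := by
        ring
      have t1 : 0 ≤ (J ^ 2 - 1) * (y ^ 2 - x * u) :=
        mul_nonneg (by nlinarith) (by linarith)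
      have t2 : 0 ≤ w ^ 2 * (A ^ 2 - 1) * (u ^ 2 - y * v) :=
        mul_nonneg (mul_nonneg (by positivity) (by nlinarith)) (by linarith)
      have t3 : 0 ≤ w * (J - 1) * (A - 1) * (y * u - x * v) :=
        mul_nonneg (mul_nonneg (mul_nonneg hw.le (by linarith)) (by linarith)) (by linarith)
      have t4 := sq_nonneg (y - w * u)
      have e4 : (i : ℝ) + 1 = J - 1 := by
        rw [hJ]
        ring
      have e5 : (D : ℝ) - i = A + 1 := by
        rw [hA]
        ring
      have e6 : (i : ℝ) + 3 = J + 1 := by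
        rw [hJ]
        ring
      have e7 : (D : ℝ) - i - 2 = A - 1 := by
        rw [hA]
        ring
      rw [e4, e7, e5, e6]
      linarith

/-- The product of the linear factors. -/
noncomputable def prodLin (W : Multiset ℝ) : ℝ[X] := (W.map fun w => X + C w).prod

theorem prodLin_ULC (W : Multiset ℝ) (hW : ∀ w ∈ W, 0 < w) : ULC (prodLin W) (Multiset.card W) := by
  induction W using Multiset.induction with
  | empty =>
    unfold prodLin
    simp only [Multiset.map_zero, Multiset.prod_zero, Multiset.card_zero]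
    refine ⟨?_, ?_, ?_⟩
    · intro j hj
      obtain rfl : j = 0 := by omega
      simp
    · intro j hj
      rw [coeff_one, if_neg (by omega)]
    · intro j hj
      omega
  | cons a W ih =>
    have h1 := ih fun w hw => hW w (Multiset.mem_cons_of_mem hw)
    have h2 := h1.lin (hW a (Multiset.mem_cons_self a W))
    unfold prodLin at h1 h2 ⊢
    simp only [Multiset.map_cons, Multiset.prod_cons, Multiset.card_cons]
    exact h2

/-- The ratios of the normalised coefficients decrease. -/
theorem ratio_anti {p : ℝ[X]} {D : ℕ} (h : ULC p D) {a b : ℕ} (hab : a ≤ b) (hb : b + 1 ≤ D) :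
    alf p D (b + 1) / alf p D b ≤ alf p D (a + 1) / alf p D a := by
  induction b, hab using Nat.le_induction with
  | base => exact le_rfl
  | succ b hab ih =>
    refine le_trans ?_ (ih (by omega))
    have h1 := alf_pos h (show b + 1 ≤ D by omega)
    have h2 := alf_pos h (show b ≤ D by omega)
    rw [div_le_div_iff₀ h1 h2]
    have h3 := h.lc b (by omega)
    nlinarith

/-- The tangent bound of a log-concave sequence. -/
theorem alf_tangent {p : ℝ[X]} {D m : ℕ} (h : ULC p D) (hmD : m < D) {j : ℕ} (hj : j ≤ D) :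
    alf p D j * (alf p D (m + 1) / alf p D m) ^ m
      ≤ alf p D m * (alf p D (m + 1) / alf p D m) ^ j := by
  have hm0 := alf_pos h hmD.le
  have hm1 := alf_pos h (show m + 1 ≤ D by omega)
  set ρ : ℝ := alf p D (m + 1) / alf p D m with hρ
  have hρ0 : 0 < ρ := by positivity
  rcases le_total m j with hmj | hjm
  · induction j, hmj using Nat.le_induction with
    | base => exact le_rfl
    | succ j hmj ih =>
      have h1 := ih (by omega)
      have h2 : alf p D (j + 1) / alf p D j ≤ ρ := ratio_anti h hmj (by omega)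
      have h3 := alf_pos h (show j ≤ D by omega)
      have h4 : alf p D (j + 1) ≤ ρ * alf p D j := by
        rw [div_le_iff₀ h3] at h2
        exact h2
      calc alf p D (j + 1) * ρ ^ m ≤ (ρ * alf p D j) * ρ ^ m :=
            mul_le_mul_of_nonneg_right h4 (by positivity)
        _ = ρ * (alf p D j * ρ ^ m) := by ring
        _ ≤ ρ * (alf p D m * ρ ^ j) := mul_le_mul_of_nonneg_left h1 hρ0.le
        _ = alf p D m * ρ ^ (j + 1) := by ring
  · have hdown : ∀ k, k ≤ m → alf p D (m - k) * ρ ^ m ≤ alf p D m * ρ ^ (m - k) := by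
      intro k
      induction k with
      | zero =>
        intro _
        exact le_rfl
      | succ k ih =>
        intro hk
        have h1 := ih (by omega)
        have e : m - k = (m - (k + 1)) + 1 := by omega
        rw [e] at h1
        set i := m - (k + 1) with hi
        have h2 : ρ ≤ alf p D (i + 1) / alf p D i := ratio_anti h (show i ≤ m by omega) (by omega)
        have h3 := alf_pos h (show i ≤ D by omega)
        have h4 : ρ * alf p D i ≤ alf p D (i + 1) := by
          rw [le_div_iff₀ h3] at h2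
          exact h2
        have h5 : ρ * (alf p D i * ρ ^ m) ≤ ρ * (alf p D m * ρ ^ i) := by
          calc ρ * (alf p D i * ρ ^ m) = (ρ * alf p D i) * ρ ^ m := by ring
            _ ≤ alf p D (i + 1) * ρ ^ m := mul_le_mul_of_nonneg_right h4 (by positivity)
            _ ≤ alf p D m * ρ ^ (i + 1) := h1
            _ = ρ * (alf p D m * ρ ^ i) := by ring
        exact le_of_mul_le_mul_left h5 hρ0
    have h6 := hdown (m - j) (by omega)
    have h7 : m - (m - j) = j := by omega
    rwa [h7] at h6

theorem aux_alg (F M N P Q c : ℝ) (d m : ℕ) (hF : 0 < F) (hM : 0 < M) (hN : 0 < N) (hP : 0 < P)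
    (hQ : 0 < Q) :
    F / (M * N) * P ^ m * Q ^ d * ((c * M * N) * ((1 / Q) ^ (d + m) / F) / (P ^ m / Q ^ m)) = c := by
  have h1 : (1 / Q) ^ (d + m) = 1 / (Q ^ d * Q ^ m) := by
    rw [one_div, inv_pow, pow_add, one_div]
  rw [h1]
  field_simp

/-- The main inequality of one coefficient of a polynomial with Newton's inequalities. -/
theorem ULC.tangent {p : ℝ[X]} {D m : ℕ} (h : ULC p D) (hm0 : 0 < m) (hmD : m < D) :
    ∃ s : ℝ, 0 < s ∧ (D.choose m : ℝ) * ((m : ℝ) / D) ^ m * (1 - (m : ℝ) / D) ^ (D - m)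
      * (p.eval s / s ^ m) ≤ p.coeff m := by
  have hD0 : (0 : ℝ) < D := by
    have : 0 < D := by omega
    exact_mod_cast this
  have hm0' : (0 : ℝ) < m := by exact_mod_cast hm0
  have hmD' : (m : ℝ) < D := by exact_mod_cast hmD
  have hα := alf_pos h hmD.le
  have hα1 := alf_pos h (show m + 1 ≤ D by omega)
  set ρ : ℝ := alf p D (m + 1) / alf p D m with hρ
  have hρ0 : 0 < ρ := by positivity
  set P : ℝ := (m : ℝ) / D with hP
  set Q : ℝ := 1 - P with hQ
  have hP0 : 0 < P := by positivity
  have hQ0 : 0 < Q := by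
    rw [hQ, hP, sub_pos, div_lt_one hD0]
    exact hmD'
  set u : ℝ := P / Q with hu
  have hu0 : 0 < u := by positivity
  have h1u : 1 + u = 1 / Q := by
    rw [hu]
    have : P + Q = 1 := by
      rw [hQ]
      ring
    field_simp
    linarith
  set s : ℝ := u / ρ with hs
  have hs0 : 0 < s := by positivity
  refine ⟨s, hs0, ?_⟩
  have hnat : p.natDegree < D + 1 := by
    rw [Nat.lt_succ_iff]
    refine natDegree_le_iff_coeff_eq_zero.2 fun j hj => h.zero j hj
  have heval : p.eval s = ∑ j ∈ range (D + 1), p.coeff j * s ^ j :=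
    eval_eq_sum_range' hnat s
  -- termwise bound
  have hterm : ∀ j ∈ range (D + 1), p.coeff j * s ^ j * ρ ^ m
      ≤ alf p D m * ((D.choose j : ℝ) * u ^ j / (D ! : ℝ)) := by
    intro j hj
    have hj' : j ≤ D := Nat.lt_succ_iff.1 (mem_range.1 hj)
    have h1 := alf_tangent h hmD hj'
    rw [← hρ] at h1
    have h2 := fact_pos' j
    have h3 := fact_pos' (D - j)
    have h4 := fact_pos' D
    have h5 : (D.choose j : ℝ) = (D ! : ℝ) / ((j ! : ℝ) * ((D - j)! : ℝ)) :=
      Nat.cast_choose ℝ hj'
    have h6 : u ^ j = ρ ^ j * s ^ j := by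
      rw [← mul_pow, hs]
      congr 1
      field_simp
    rw [h5, h6]
    unfold alf at h1 ⊢
    have h7 : p.coeff j * s ^ j * ρ ^ m
        = (p.coeff j * (j ! : ℝ) * ((D - j)! : ℝ) * ρ ^ m) * (s ^ j / ((j ! : ℝ) * ((D - j)! : ℝ))) := by
      field_simp
    rw [h7]
    have h8 : p.coeff m * (m ! : ℝ) * ((D - m)! : ℝ)
          * ((D ! : ℝ) / ((j ! : ℝ) * ((D - j)! : ℝ)) * (ρ ^ j * s ^ j) / (D ! : ℝ))
        = (p.coeff m * (m ! : ℝ) * ((D - m)! : ℝ) * ρ ^ j) * (s ^ j / ((j ! : ℝ) * ((D - j)! : ℝ))) := by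
      field_simp
    rw [h8]
    exact mul_le_mul_of_nonneg_right h1 (by positivity)
  have hsum : p.eval s * ρ ^ m ≤ alf p D m * ((1 + u) ^ D / (D ! : ℝ)) := by
    rw [heval, Finset.sum_mul]
    refine (Finset.sum_le_sum hterm).trans (le_of_eq ?_)
    rw [← Finset.mul_sum, ← Finset.sum_div]
    congr 2
    rw [add_comm (1 : ℝ) u, add_pow]
    refine Finset.sum_congr rfl fun j _ => ?_
    rw [one_pow, mul_one, mul_comm]
  -- conclusion
  have hsm : s ^ m = u ^ m / ρ ^ m := by
    rw [hs, div_pow]
  have h2 : p.eval s / s ^ m = p.eval s * ρ ^ m / u ^ m := by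
    rw [hsm]
    field_simp
  rw [h2]
  have hC : (0 : ℝ) ≤ (D.choose m : ℝ) * P ^ m * Q ^ (D - m) := by positivity
  have h3 : (D.choose m : ℝ) * P ^ m * Q ^ (D - m) * (p.eval s * ρ ^ m / u ^ m)
      ≤ (D.choose m : ℝ) * P ^ m * Q ^ (D - m) * (alf p D m * ((1 + u) ^ D / (D ! : ℝ)) / u ^ m) :=
    mul_le_mul_of_nonneg_left (div_le_div_of_nonneg_right hsum (by positivity)) hC
  refine h3.trans (le_of_eq ?_)
  have h4 : (D.choose m : ℝ) = (D ! : ℝ) / ((m ! : ℝ) * ((D - m)! : ℝ)) :=
    Nat.cast_choose ℝ hmD.le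
  have h5 := fact_pos' m
  have h6 := fact_pos' (D - m)
  have h7 := fact_pos' D
  have h8 : (1 + u) ^ D = (1 / Q) ^ ((D - m) + m) := by
    rw [h1u]
    congr 1
    omega
  have h9 : u ^ m = P ^ m / Q ^ m := by
    rw [hu, div_pow]
  rw [h4, h8, h9]
  unfold alf
  exact aux_alg _ _ _ _ _ _ _ _ h7 h5 h6 hP0 hQ0

end Vale.Agent.Lib.P328.Lower
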